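import Vale.Agent.P064.Defs
import Vale.Agent.P064.Main

namespace Vale.Agent.Results.P064.LogSq

open Vale.Agent.P064

/-- There is a universal constant `C` such that for all `n` at least two and all graphs `H` with
at most `n` vertices and at least one edge, `p_c` is at most `C p_E (log n)^2`, and the fractional
expectation threshold is at most `C p_E log n`. -/
theorem result : ∃ C : ℝ, 0 < C ∧
    ∀ (n : ℕ), 2 ≤ n → ∀ (V : Type) [Fintype V] (H : SimpleGraph V),
      Fintype.card V ≤ n → H.edgeSet.Nonempty →
        pc n H ≤ C * pE n H * Real.log n ^ 2 ∧ pEfrac n H ≤ C * pE n H * Real.log n :=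
  Vale.Agent.P064.main

end Vale.Agent.Results.P064.LogSq
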